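import Vale.Agent.Lib.P124.Rigidity

namespace Vale.Agent.Results.P124.AffineApproximation

open Vale.Agent.Lib.P124

/-- Let `X`, `Y` be real Banach spaces and `f : X → Y` a surjection with
`‖f x - f x'‖ ≥ c ‖x - x'‖ - δ` for all `x, x'` (`c > 0`, `δ ≥ 0`). If on one closed ball of
radius `r` the map `f` is within `η` of a continuous affine map `x ↦ y₀ + T (x - x₀)` and
`η + δ < c r`, then `T` is a linear isomorphism of `X` onto `Y`. -/
theorem result {X Y : Type*} [NormedAddCommGroup X] [NormedSpace ℝ X] [CompleteSpace X]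
    [NormedAddCommGroup Y] [NormedSpace ℝ Y] [CompleteSpace Y]
    (f : X → Y) (hsurj : Function.Surjective f)
    (c δ : ℝ) (hc : 0 < c) (hδ : 0 ≤ δ)
    (hco : ∀ x x', c * ‖x - x'‖ - δ ≤ ‖f x - f x'‖)
    (T : X →L[ℝ] Y) (y₀ : Y) (x₀ : X) (r η : ℝ) (hr : 0 < r) (hη : 0 ≤ η)
    (hsmall : η + δ < c * r)
    (happ : ∀ x, ‖x - x₀‖ ≤ r → ‖f x - (y₀ + T (x - x₀))‖ ≤ η) :
    ∃ e : X ≃L[ℝ] Y, (e : X →L[ℝ] Y) = T :=
  affine_rigidity f hsurj hc hδ hco T y₀ x₀ hr hη hsmall happ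

end Vale.Agent.Results.P124.AffineApproximation
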