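import Vale.Agent.Lib.P124.Rigidity

namespace Vale.Agent.Results.P124.FrechetPoint

open Vale.Agent.Lib.P124

/-- Let `X`, `Y` be real Banach spaces and `f : X → Y` a bijection whose inverse is Lipschitz
(in particular any Lipschitz isomorphism). If `f` is Frechet differentiable at a single point,
then its derivative there is a linear isomorphism of `X` onto `Y`. -/
theorem result {X Y : Type*} [NormedAddCommGroup X] [NormedSpace ℝ X] [CompleteSpace X]
    [NormedAddCommGroup Y] [NormedSpace ℝ Y] [CompleteSpace Y]
    (f : X ≃ Y) (K : NNReal) (hK : AntilipschitzWith K f)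
    (x₀ : X) (T : X →L[ℝ] Y) (hT : HasFDerivAt f T x₀) :
    ∃ e : X ≃L[ℝ] Y, (e : X →L[ℝ] Y) = T :=
  frechet_point f K hK x₀ T hT

end Vale.Agent.Results.P124.FrechetPoint
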